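import Vale.Agent.P347.Main
import Vale.Agent.P347.Stm

namespace Vale.Agent.Results.P347.ThreeTenths

open Vale.Agent.P347S

theorem cls_iff {d : ℕ} (V : E d → ℝ) : InClass V ↔ Vale.Agent.P347.InClass V := by
  simp only [InClass, Vale.Agent.P347.InClass, hess, iteratedFDeriv_two_apply, Matrix.cons_val_zero,
    Matrix.cons_val_one]

theorem hist_eq {d : ℕ} {Ω : Type} (qr : ℕ → Ω × (ℕ → ℝ × E d) → E d) (O : E d → ℝ × E d) (ω : Ω)
    (i : ℕ) : hist qr O ω i = Vale.Agent.P347.hist qr O ω i := by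
  induction i with
  | zero => rfl
  | succ i ih => simp only [hist, Vale.Agent.P347.hist, ih]

theorem good_eq : Good = Vale.Agent.P347.Good := by
  funext d q
  simp only [Good, Vale.Agent.P347.Good, cls_iff, hist_eq]
  rfl

theorem result :
    (∀ a : ℝ, 3 / 10 < a → ∀ᶠ d : ℕ in Filter.atTop, ∃ q : ℕ, (q : ℝ) ≤ (d : ℝ) ^ a ∧ Good d q) ∧
    Filter.limsup (fun d : ℕ => Real.log (Q d) / Real.log d) Filter.atTop ≤ 3 / 10 := by
  simp only [Q, good_eq]
  exact Vale.Agent.P347.mainAr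

end Vale.Agent.Results.P347.ThreeTenths
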